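import Vale.Agent.Lib.P069.Final

/-!
# P069: the negative answer to Q1, stated without any auxiliary definition

There is a real infinite dimensional reflexive Banach space whose norm is asymptotically midpoint
uniformly convex and which has no equivalent asymptotically uniformly convex norm.
-/

namespace Vale.Agent.Results.P069.ExplicitStatement

open Vale.Agent.Lib.P069

theorem result :
    ∃ (X : Type) (_ : NormedAddCommGroup X) (_ : NormedSpace ℝ X),
      CompleteSpace X ∧ ¬ FiniteDimensional ℝ X ∧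
      Function.Surjective (NormedSpace.inclusionInDoubleDual ℝ X) ∧
      (∀ t : ℝ, 0 < t → ∃ δ : ℝ, 0 < δ ∧ ∀ x : X, ‖x‖ = 1 →
        ∃ F : Submodule ℝ X, (IsClosed (F : Set X) ∧ FiniteDimensional ℝ (X ⧸ F)) ∧
          ∀ y ∈ F, ‖y‖ = 1 → 1 + δ ≤ max ‖x + t • y‖ ‖x - t • y‖) ∧
      ¬ ∃ N : X → ℝ,
        ((∀ x y, N (x + y) ≤ N x + N y) ∧ (∀ (c : ℝ) x, N (c • x) = |c| * N x) ∧
          ∃ a b : ℝ, 0 < a ∧ 0 < b ∧ ∀ x, a * ‖x‖ ≤ N x ∧ N x ≤ b * ‖x‖) ∧
        ∀ t : ℝ, 0 < t → ∃ δ : ℝ, 0 < δ ∧ ∀ x : X, N x = 1 →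
          ∃ F : Submodule ℝ X, (IsClosed (F : Set X) ∧ FiniteDimensional ℝ (X ⧸ F)) ∧
            ∀ y ∈ F, N y = 1 → 1 + δ ≤ N (x + t • y) :=
  ⟨X, inferInstance, inferInstance, inferInstance, X_infinite_dim, X_refl, X_AMUC, X_not_AUC⟩

end Vale.Agent.Results.P069.ExplicitStatement
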