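import Vale.Agent.Lib.P069.Final

/-!
# P069: a reflexive Banach space whose norm is AMUC and which has no equivalent AUC norm

This answers Q1 in the negative.  The space is the l2 sum of the spaces `(l2(T), N_n)`, where `T` is
the countably branching tree and `N_n` is dual to the norm
`max (l2 norm) (sup of the absolute branch sums up to height n)`.
-/

namespace Vale.Agent.Results.P069.ReflexiveCounterexample

open Vale.Agent.Lib.P069

theorem result :
    ∃ (X : Type) (_ : NormedAddCommGroup X) (_ : NormedSpace ℝ X),
      CompleteSpace X ∧ ¬ FiniteDimensional ℝ X ∧ IsRefl X ∧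
        IsAMUC (fun x : X => ‖x‖) ∧ ¬ ∃ N : X → ℝ, IsEquivNorm N ∧ IsAUC N :=
  ⟨X, inferInstance, inferInstance, inferInstance, X_infinite_dim, X_refl, X_AMUC, X_not_AUC⟩

end Vale.Agent.Results.P069.ReflexiveCounterexample
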